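import Vale.Agent.Lib.P064L.BoundedDegree

/-!
Q1 for graphs of bounded degree and for graphs with few edges.
-/

open Vale.Agent.Lib.P064 in
/-- (1) For hosts of maximum degree at most `Δ`: `tilde p_E ≤ C Δ p_E`, `p_c ≤ C Δ p_E log (e(H) + 3)`
and `p_c ≤ C Δ p_E log n`. (2) For every `ε > 0`, for all `H`:
`p_c ≤ C max (p_E, 1 / n) (log n)^(1/2 + ε) log (e(H) + 3)`. (3) For every `ε > 0`:
`p_c ≤ C p_E log n` whenever `p_E ≥ 1 / (3 n)` and `log (e(H) + 3) ≤ (log n)^(1/2 - ε)`. -/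
theorem Vale.Agent.Results.P064.A00000_edges.result :
    (∃ C : ℝ, 0 < C ∧ ∀ n : ℕ, 2 ≤ n → ∀ (V : Type) [Fintype V] (H : SimpleGraph V) (Δ : ℕ),
      Fintype.card V ≤ n → H ≠ ⊥ → 1 ≤ Δ → (∀ x, (H.neighborSet x).ncard ≤ Δ) →
      pTilde n H ≤ C * (Δ : ℝ) * pE n H ∧
      pc n H ≤ C * (Δ : ℝ) * pE n H * Real.log ((H.edgeSet.ncard : ℝ) + 3) ∧
      pc n H ≤ C * (Δ : ℝ) * pE n H * Real.log n) ∧
    (∀ ε : ℝ, 0 < ε →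
      (∃ C : ℝ, 0 < C ∧ ∀ n : ℕ, 3 ≤ n → ∀ (V : Type) [Fintype V] (H : SimpleGraph V),
        Fintype.card V ≤ n → H ≠ ⊥ →
        pc n H ≤ C * max (pE n H) (1 / (n : ℝ)) * (Real.log n) ^ (1 / 2 + ε) *
          Real.log ((H.edgeSet.ncard : ℝ) + 3)) ∧
      (∃ C : ℝ, 0 < C ∧ ∀ n : ℕ, 3 ≤ n → ∀ (V : Type) [Fintype V] (H : SimpleGraph V),
        Fintype.card V ≤ n → H ≠ ⊥ → 1 / (3 * (n : ℝ)) ≤ pE n H →
        Real.log ((H.edgeSet.ncard : ℝ) + 3) ≤ (Real.log n) ^ (1 / 2 - ε) →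
        pc n H ≤ C * pE n H * Real.log n)) :=
  ⟨Vale.Agent.Lib.P064L.q1_deg, fun ε hε =>
    ⟨Vale.Agent.Lib.P064L.pc_uniform_edges ε hε, Vale.Agent.Lib.P064L.q1_few_edges ε hε⟩⟩
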