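import Vale.Agent.Lib.P064T.Uniform
import Vale.Agent.Lib.P064X.XWindow
import Vale.Agent.Lib.P064.SharpFinal
import Vale.Agent.Lib.P064.PeelFinal
import Vale.Agent.Lib.P064M.Parts
import Vale.Agent.Lib.P064M.FinalV
import Vale.Agent.Lib.P064M.Away
import Vale.Agent.Lib.P064Q.FinalQ
import Vale.Agent.Lib.P064G.Main
import Vale.Agent.Lib.P064L.LogEdges
import Vale.Agent.Lib.P064L.BoundedDegree
import Vale.Agent.Lib.P064Y.Final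
import Vale.Agent.Lib.P064Y.Wide
import Vale.Agent.Lib.P064D.Pow
import Vale.Agent.Lib.P064Two.Near
import Vale.Agent.Lib.P064Sep.Final

open Vale.Agent.Lib.P064 in
/-- All the bounds at once, see the claim file. `P = p_E(n,H)`, `L = log n`, `D = n P`, `M = max (P, 1 / n)`,
`a = log (1 / M) / L`, `n ≥ 3` (or `n ≥ 2`), `H` with an edge and at most `n` vertices. -/
theorem Vale.Agent.Results.P064.A00000_final.result :
    (∀ ε : ℝ, 0 < ε → ∃ C : ℝ, 0 < C ∧ ∀ n : ℕ, 3 ≤ n → ∀ (V : Type) [Fintype V] (H : SimpleGraph V),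
      Fintype.card V ≤ n → H ≠ ⊥ →
      pTilde n H ≤ C * max (pE n H) (1 / (n : ℝ)) * (Real.log n) ^ (1 / 2 + ε) ∧
      pc n H ≤ C * max (pE n H) (1 / (n : ℝ)) * (Real.log n) ^ (3 / 2 + ε)) ∧
    (∀ δ : ℝ, 0 < δ → δ ≤ 1 → ∃ C : ℝ, 0 < C ∧ ∀ n : ℕ, 3 ≤ n → ∀ (V : Type) [Fintype V] (H : SimpleGraph V),
      Fintype.card V ≤ n → H ≠ ⊥ →
      ∀ a : ℝ, a = Real.log (1 / max (pE n H) (1 / (n : ℝ))) / Real.log n → δ ≤ |2 * a - 1| →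
      pTilde n H ≤ C * max (pE n H) (1 / (n : ℝ)) * (Real.log n) ^ ((9 : ℝ) / 20) ∧
      pc n H ≤ C * max (pE n H) (1 / (n : ℝ)) * (Real.log n) ^ ((29 : ℝ) / 20)) ∧
    (∀ δ ε : ℝ, 0 < δ → δ ≤ 1 → 0 < ε → ∃ C : ℝ, 0 < C ∧ ∀ n : ℕ, 3 ≤ n → ∀ (V : Type) [Fintype V] (H : SimpleGraph V),
      Fintype.card V ≤ n → H ≠ ⊥ →
      ∀ a : ℝ, a = Real.log (1 / max (pE n H) (1 / (n : ℝ))) / Real.log n →
      δ ≤ a → (∀ d : ℕ, 2 ≤ d → δ ≤ |(d : ℝ) * a - 1|) →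
      pTilde n H ≤ C * (max (pE n H) (1 / (n : ℝ)) * (Real.log n) ^ (a / 2 + ε) + Real.log n / n) ∧
      pc n H ≤ C * Real.log n *
        (max (pE n H) (1 / (n : ℝ)) * (Real.log n) ^ (a / 2 + ε) + Real.log n / n)) ∧
    (∀ μ₀ : ℕ, 2 ≤ μ₀ → ∃ C : ℝ, 0 < C ∧ ∀ n : ℕ, 3 ≤ n → ∀ (V : Type) [Fintype V] (H : SimpleGraph V),
      Fintype.card V ≤ n → H ≠ ⊥ →
      ∀ a : ℝ, a = Real.log (1 / max (pE n H) (1 / (n : ℝ))) / Real.log n →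
      ∀ δ : ℝ, 0 < δ → δ ≤ 1 →
      (∀ j m : ℕ, 1 ≤ j → j < μ₀ → 1 ≤ m → δ ≤ |(m : ℝ) * a - (j : ℝ)|) →
      pTilde n H ≤ C * (1 / δ ^ 6) * (max (pE n H) (1 / (n : ℝ)) * (Real.log n) ^ ((3 : ℝ) / μ₀)) ∧
      pc n H ≤ C * (1 / δ ^ 6) * Real.log n *
        (max (pE n H) (1 / (n : ℝ)) * (Real.log n) ^ ((3 : ℝ) / μ₀))) ∧
    (∀ u : ℕ, 2 ≤ u → ∃ C : ℝ, 0 < C ∧ ∀ n : ℕ, 3 ≤ n → ∀ (V : Type) [Fintype V] (H : SimpleGraph V),
      Fintype.card V ≤ n → H ≠ ⊥ →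
      ∀ a : ℝ, a = Real.log (1 / max (pE n H) (1 / (n : ℝ))) / Real.log n → 0 < a →
      ∀ δ : ℝ, 0 < δ → δ ≤ 1 →
      (∀ j m : ℕ, 1 ≤ j → j < u → 1 ≤ m →
        (j : ℝ) + δ ≤ (m : ℝ) * a ∨
          8 * (u : ℝ) / a * Real.log n ≤ (n : ℝ) ^ j * max (pE n H) (1 / (n : ℝ)) ^ m) →
      pTilde n H ≤ C * (1 / (a * δ) ^ 3) * (max (pE n H) (1 / (n : ℝ)) * (Real.log n) ^ ((3 : ℝ) / u)) ∧
      pc n H ≤ C * (1 / (a * δ) ^ 3) * Real.log n *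
        (max (pE n H) (1 / (n : ℝ)) * (Real.log n) ^ ((3 : ℝ) / u))) ∧
    (∀ a₀ : ℝ, Irrational a₀ → 0 < a₀ → ∀ ε : ℝ, 0 < ε →
      ∃ η C : ℝ, 0 < η ∧ 0 < C ∧ ∀ n : ℕ, 3 ≤ n → ∀ (V : Type) [Fintype V] (H : SimpleGraph V),
      Fintype.card V ≤ n → H ≠ ⊥ →
      ∀ a : ℝ, a = Real.log (1 / max (pE n H) (1 / (n : ℝ))) / Real.log n → |a - a₀| ≤ η →
      pTilde n H ≤ C * (max (pE n H) (1 / (n : ℝ)) * (Real.log n) ^ ε) ∧
      pc n H ≤ C * Real.log n * (max (pE n H) (1 / (n : ℝ)) * (Real.log n) ^ ε)) ∧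
    (∀ r s : ℕ, 2 ≤ r → 1 ≤ s → Nat.Coprime r s →
      ∃ η C : ℝ, 0 < η ∧ 0 < C ∧ ∀ n : ℕ, 3 ≤ n → ∀ (V : Type) [Fintype V] (H : SimpleGraph V),
      Fintype.card V ≤ n → H ≠ ⊥ →
      ∀ a : ℝ, a = Real.log (1 / max (pE n H) (1 / (n : ℝ))) / Real.log n →
      |a - (r : ℝ) / s| ≤ η →
      pTilde n H ≤ C * (max (pE n H) (1 / (n : ℝ)) * (Real.log n) ^ ((3 : ℝ) / r)) ∧
      pc n H ≤ C * Real.log n * (max (pE n H) (1 / (n : ℝ)) * (Real.log n) ^ ((3 : ℝ) / r))) ∧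
    (∀ d : ℕ, 2 ≤ d → ∀ ε : ℝ, 0 < ε →
      ∃ κ C₁ C : ℝ, 0 < κ ∧ 0 < C₁ ∧ 0 < C ∧ ∀ n : ℕ, 3 ≤ n → ∀ (V : Type) [Fintype V] (H : SimpleGraph V),
      Fintype.card V ≤ n → H ≠ ⊥ →
      ∀ a : ℝ, a = Real.log (1 / max (pE n H) (1 / (n : ℝ))) / Real.log n → |a - 1 / (d : ℝ)| ≤ κ →
      (C₁ * Real.log n ≤ (n : ℝ) * max (pE n H) (1 / (n : ℝ)) ^ d →
        pTilde n H ≤ C * (max (pE n H) (1 / (n : ℝ)) * (Real.log n) ^ ε) ∧
        pc n H ≤ C * Real.log n * (max (pE n H) (1 / (n : ℝ)) * (Real.log n) ^ ε)) ∧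
      (∀ t : ℝ, 0 < t → 1 / (d : ℝ) + t ≤ a →
        pTilde n H ≤ C * (1 / t ^ 3) * (max (pE n H) (1 / (n : ℝ)) * (Real.log n) ^ ε) ∧
        pc n H ≤ C * (1 / t ^ 3) * Real.log n * (max (pE n H) (1 / (n : ℝ)) * (Real.log n) ^ ε))) ∧
    (∀ ε : ℝ, 0 < ε →
      (∃ C : ℝ, 0 < C ∧ ∀ n : ℕ, 3 ≤ n → ∀ (V : Type) [Fintype V] (H : SimpleGraph V),
      Fintype.card V ≤ n → H ≠ ⊥ →
        pc n H ≤ C * max (pE n H) (1 / (n : ℝ)) * (Real.log n) ^ (1 / 2 + ε) *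
          Real.log ((H.edgeSet.ncard : ℝ) + 3)) ∧
      (∃ C : ℝ, 0 < C ∧ ∀ n : ℕ, 3 ≤ n → ∀ (V : Type) [Fintype V] (H : SimpleGraph V),
      Fintype.card V ≤ n → H ≠ ⊥ → 1 / (3 * (n : ℝ)) ≤ pE n H →
        Real.log ((H.edgeSet.ncard : ℝ) + 3) ≤ (Real.log n) ^ (1 / 2 - ε) →
        pc n H ≤ C * pE n H * Real.log n)) ∧
    (∃ C : ℝ, 0 < C ∧ ∀ n : ℕ, 2 ≤ n → ∀ (V : Type) [Fintype V] (H : SimpleGraph V) (Δ : ℕ),
      Fintype.card V ≤ n → H ≠ ⊥ → 1 ≤ Δ → (∀ x, (H.neighborSet x).ncard ≤ Δ) →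
      pTilde n H ≤ C * (Δ : ℝ) * pE n H ∧
      pc n H ≤ C * (Δ : ℝ) * pE n H * Real.log ((H.edgeSet.ncard : ℝ) + 3) ∧
      pc n H ≤ C * (Δ : ℝ) * pE n H * Real.log n) ∧
    (∃ C : ℝ, 0 < C ∧ ∀ (n : ℕ) (V : Type) [Fintype V] (H : SimpleGraph V), 2 ≤ n →
      Fintype.card V ≤ n → H ≠ ⊥ → ∀ Δ : ℕ, (∀ x, (H.neighborSet x).ncard ≤ Δ) →
      pTilde n H ≤ C * (Δ : ℝ) ^ (min 1 (Real.log (1 / pE n H) / Real.log n)) * pE n H ∧
      pc n H ≤ C * (Δ : ℝ) ^ (min 1 (Real.log (1 / pE n H) / Real.log n)) * pE n H * Real.log n) ∧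
    (∃ C : ℝ, 0 < C ∧ ∀ n : ℕ, 3 ≤ n → ∀ (V : Type) [Fintype V] (H : SimpleGraph V),
      Fintype.card V ≤ n → H ≠ ⊥ →
      (H.IsAcyclic → pTilde n H ≤ C * pE n H ∧ pc n H ≤ C * pE n H * Real.log n) ∧
      (∀ s t : ℝ, s = Real.log (1 + Real.log n / ((n : ℝ) * max (pE n H) (1 / (n : ℝ)))) →
        t = Real.log (1 + (n : ℝ) * max (pE n H) (1 / (n : ℝ))) → (n : ℝ) * max (pE n H) (1 / (n : ℝ)) ≤ Real.log n →
        pTilde n H ≤ C * max (pE n H) (1 / (n : ℝ)) * Real.exp (s * t / (s + t)) ∧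
        pc n H ≤ C * max (pE n H) (1 / (n : ℝ)) * Real.log n * Real.exp (s * t / (s + t)) ∧
        Real.exp (s * t / (s + t)) ≤ (4 * Real.log n) ^ (1 / 4 : ℝ)) ∧
      ((n : ℝ) * pE n H ≤ (n : ℝ) ^ (1 / 14 : ℝ) →
        pTilde n H ≤ C * max (pE n H) (1 / (n : ℝ)) * Real.log n ^ (1 / 4 : ℝ) ∧
        pc n H ≤ C * max (pE n H) (1 / (n : ℝ)) * Real.log n ^ (5 / 4 : ℝ)) ∧
      (pTilde n H ≤ C * (1 / (n : ℝ) + (n : ℝ) * pE n H ^ 2) ∧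
        pc n H ≤ C * Real.log n * (1 / (n : ℝ) + (n : ℝ) * pE n H ^ 2)) ∧
      (Real.log n ≤ (n : ℝ) * pE n H →
        Real.log ((n : ℝ) * pE n H) * Real.log (Real.log n) ≤ Real.log n →
        pTilde n H ≤ C * pE n H ∧ pc n H ≤ C * pE n H * Real.log n) ∧
      (Real.exp (-(Real.log n / Real.log (Real.log n))) ≤ pE n H →
        pTilde n H ≤ C * pE n H ∧ pc n H ≤ C * pE n H * Real.log n) ∧
      (1 ≤ (n : ℝ) * pE n H → 1000 * ((n : ℝ) * pE n H) ^ 2 ≤ n →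
        pTilde n H ≤ C * pE n H *
          (Real.exp ((16 / 5) * (Real.log ((n : ℝ) * pE n H) + 3) * Real.log (Real.log n) /
            (Real.log n - Real.log ((n : ℝ) * pE n H) - 2)) +
            Real.log n / ((n : ℝ) * pE n H)) ∧
        pc n H ≤ C * pE n H * Real.log n *
          (Real.exp ((16 / 5) * (Real.log ((n : ℝ) * pE n H) + 3) * Real.log (Real.log n) /
            (Real.log n - Real.log ((n : ℝ) * pE n H) - 2)) +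
            Real.log n / ((n : ℝ) * pE n H))) ∧
      (8 * pE n H * Real.sqrt n ≤ 1 → Real.log n / n ≤ pE n H →
        pTilde n H ≤ C * (pE n H * (1 + Real.log (Real.log n)) *
            (Real.log n) ^ ((7 / 3) * max 0 (Real.log n / Real.log (1 / pE n H) - 1))) ∧
        pc n H ≤ C * Real.log n * (pE n H * (1 + Real.log (Real.log n)) *
            (Real.log n) ^ ((7 / 3) * max 0 (Real.log n / Real.log (1 / pE n H) - 1)))) ∧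
      (pTilde n H ≤ C * pE n H *
          (1 + Real.log n) ^ (min 1 (Real.log (1 / pE n H) / Real.log n)) ∧
        pc n H ≤ C * pE n H * Real.log n *
          (1 + Real.log n) ^ (min 1 (Real.log (1 / pE n H) / Real.log n)))) := by
  refine ⟨fun ε hε => Vale.Agent.Lib.P064T.thresholds_uniform ε hε,
    fun δ hδ hδ1 => Vale.Agent.Lib.P064M.away_half δ hδ hδ1,
    fun δ ε hδ hδ1 hε => Vale.Agent.Lib.P064M.thresholds_V δ ε hδ hδ1 hε,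
    fun μ₀ hμ₀ => Vale.Agent.Lib.P064Sep.y_thresholds_delta μ₀ hμ₀,
    fun u hu => Vale.Agent.Lib.P064Two.z_two_sided u hu,
    fun _ hirr ha₀ _ hε => Vale.Agent.Lib.P064Sep.y_irrational hirr ha₀ hε,
    fun _ _ hr hs hcop => Vale.Agent.Lib.P064Sep.y_rational hr hs hcop,
    fun d hd _ hε => Vale.Agent.Lib.P064Two.z_near_unit d hd hε,
    fun ε hε => ⟨Vale.Agent.Lib.P064L.pc_uniform_edges ε hε, Vale.Agent.Lib.P064L.q1_few_edges ε hε⟩,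
    Vale.Agent.Lib.P064L.q1_deg, Vale.Agent.Lib.P064D.deg_pow_thresholds, ?_⟩
  obtain ⟨C₁, hC₁, h1⟩ := x_thresholds
  obtain ⟨C₂, hC₂, h2⟩ := x_window
  obtain ⟨C₃, hC₃, h3⟩ := pTilde_le_pE_range
  obtain ⟨C₄, hC₄, h4⟩ := pc_le_pE_log_range
  obtain ⟨C₅, hC₅, h5⟩ := Vale.Agent.Lib.P064M.up_window
  obtain ⟨C₆, hC₆, h6⟩ := pTilde_le_pE_sharp
  obtain ⟨C₇, hC₇, h7⟩ := pc_le_pE_sharp
  obtain ⟨C₈, hC₈, h8⟩ := Vale.Agent.Lib.P064Q.q_thresholds_main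
  obtain ⟨C₉, hC₉, h9'⟩ := Vale.Agent.Lib.P064G.forest_thresholds
  obtain ⟨C₁₀, hC₁₀, h10'⟩ := Vale.Agent.Lib.P064Y.y_wide
  obtain ⟨C₁₁, hC₁₁, h11'⟩ := Vale.Agent.Lib.P064Y.y_thresholds
  obtain ⟨C, hC⟩ : ∃ C, C = C₁ + C₂ + C₃ + C₄ + C₅ + C₆ + C₇ + C₈ + C₉ + C₁₀ + C₁₁ := ⟨_, rfl⟩
  have hC1 : C₁ ≤ C := by rw [hC]; linarith
  have hC2 : C₂ ≤ C := by rw [hC]; linarith
  have hC3 : C₃ ≤ C := by rw [hC]; linarith
  have hC4 : C₄ ≤ C := by rw [hC]; linarith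
  have hC5 : C₅ ≤ C := by rw [hC]; linarith
  have hC6 : C₆ ≤ C := by rw [hC]; linarith
  have hC7 : C₇ ≤ C := by rw [hC]; linarith
  have hC8 : C₈ ≤ C := by rw [hC]; linarith
  have hC9 : C₉ ≤ C := by rw [hC]; linarith
  have hC10 : C₁₀ ≤ C := by rw [hC]; linarith
  have hC11 : C₁₁ ≤ C := by rw [hC]; linarith
  have hC0 : 0 < C := by linarith
  refine ⟨C, hC0, ?_⟩
  intro n hn V _ H hV hH
  have hn' : 2 ≤ n := by omega
  have hE0 : 0 < pE n H := pE_pos hn' hV hH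
  have hn3 : (3 : ℝ) ≤ n := by exact_mod_cast hn
  have hn0 : (0 : ℝ) < n := by linarith
  have hL : 0 < Real.log n := Real.log_pos (by linarith)
  have hM : 0 < max (pE n H) (1 / (n : ℝ)) := lt_max_of_lt_left hE0
  refine ⟨?_, ?_, ?_, ?_, ?_, ?_, ?_, ?_, ?_⟩
  · intro hA
    obtain ⟨h9, h10⟩ := h9' n V H hn' hV hH hA
    exact ⟨h9.trans (by gcongr), h10.trans (by gcongr)⟩
  · intro s t hs ht hDL
    obtain ⟨h9, h10⟩ := h11' n V H hn hV hH hDL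
    have hD1 : 1 ≤ (n : ℝ) * max (pE n H) (1 / (n : ℝ)) := by
      have h1n : (n : ℝ) * (1 / (n : ℝ)) = 1 := by field_simp
      calc (1 : ℝ) = (n : ℝ) * (1 / (n : ℝ)) := h1n.symm
        _ ≤ _ := mul_le_mul_of_nonneg_left (le_max_right _ _) hn0.le
    have hq := Vale.Agent.Lib.P064Y.qExp_le hD1 hDL
    unfold Vale.Agent.Lib.P064Y.qExp Vale.Agent.Lib.P064Y.yh at h9 h10 hq
    rw [← hs, ← ht] at h9 h10 hq
    refine ⟨h9.trans (by gcongr), ?_, hq⟩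
    refine h10.trans ?_
    have he : 0 < Real.exp (s * t / (s + t)) := Real.exp_pos _
    calc C₁₁ * Real.log n * max (pE n H) (1 / (n : ℝ)) * Real.exp (s * t / (s + t))
        = C₁₁ * max (pE n H) (1 / (n : ℝ)) * Real.log n * Real.exp (s * t / (s + t)) := by ring
      _ ≤ _ := by gcongr
  · intro hw
    obtain ⟨h9, h10⟩ := h10' n V H hn hV hH hw
    exact ⟨h9.trans (by gcongr), h10.trans (by gcongr)⟩
  · obtain ⟨h9, h10⟩ := h8 n V H hn' hV hH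
    have hb : 0 ≤ 1 / (n : ℝ) + (n : ℝ) * pE n H ^ 2 := by positivity
    constructor
    · exact h9.trans (by gcongr)
    · exact h10.trans (by gcongr)
  · intro hD1 hD2
    obtain ⟨h9, h10⟩ := h2 n V H hn' hV hH hD1 hD2
    exact ⟨h9.trans (by gcongr), h10.trans (by gcongr)⟩
  · intro hr
    exact ⟨(h3 n hn V H hV hH hr).trans (by gcongr), (h4 n hn V H hV hH hr).trans (by gcongr)⟩
  · intro hD1 hD2
    obtain ⟨h9, h10⟩ := h1 n V H hn' hV hH hD1 hD2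
    unfold xExpo at h9 h10
    have hf2 : 0 ≤ Real.log n / ((n : ℝ) * pE n H) := by positivity
    exact ⟨h9.trans (by gcongr), h10.trans (by gcongr)⟩
  · intro hs hp
    obtain ⟨h9, h10⟩ := h5 n hn V H hV hH hs hp
    have hx1 : 0 ≤ 1 + Real.log (Real.log n) := by
      have hx2 : 1 ≤ Real.log n := by
        have h11 : Real.log (Real.exp 1) ≤ Real.log n :=
          Real.log_le_log (Real.exp_pos 1) (by have := Real.exp_one_lt_d9; linarith)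
        rwa [Real.log_exp] at h11
      have := Real.log_nonneg hx2
      linarith
    exact ⟨h9.trans (by gcongr), h10.trans (by gcongr)⟩
  · exact ⟨(h6 n hn' V H hV hH).trans (by gcongr), (h7 n hn' V H hV hH).trans (by gcongr)⟩
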