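import Vale.Agent.Lib.P064G.Main

open Vale.Agent.Lib.P064 Vale.Agent.Lib.P064G in
/-- For all `n ≥ 2` and all forests `H` with an edge and at most `n` vertices:
`tilde p_E ≤ C p_E` and `p_c ≤ C p_E log n`, with a universal constant `C`. -/
theorem Vale.Agent.Results.P064.A00000_forest.result :
    ∃ C : ℝ, 0 < C ∧ ∀ (n : ℕ) (V : Type) [Fintype V] (H : SimpleGraph V), 2 ≤ n →
      Fintype.card V ≤ n → H ≠ ⊥ → H.IsAcyclic →
      pTilde n H ≤ C * pE n H ∧ pc n H ≤ C * pE n H * Real.log n :=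
  forest_thresholds
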