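import Vale.Agent.Lib.P064Int.Near

open Vale.Agent.Lib.P064 Vale.Agent.Lib.P064Sep Vale.Agent.Lib.P064Two Vale.Agent.Lib.P064Int in
/-- With `P = max (p_E(n,H), 1 / n)`, `L = log n`, `a = log (1 / P) / L`; `n ≥ 3`, `H` with an edge and at
most `n` vertices.
(1) For every integer `u ≥ 2` there is `C` such that for all `δ` in `(0, 1]`: if `|m a - j| ≥ δ` for all
integers `1 ≤ j < u`, `m ≥ 1`, then `tilde p_E ≤ C δ^(-6) P L^(3 / u)` and `p_c ≤ C δ^(-6) L P L^(3 / u)`.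
(2) For every integer `u ≥ 2` there is `C` such that for `a > 0` and all `δ` in `(0, 1]`: if for all integers
`1 ≤ j < u`, `m ≥ 1` either `m a ≥ j + δ` or `n^j P^m ≥ (8 u / a) L`, then
`tilde p_E ≤ C (a δ)^(-3) P L^(3 / u)` and `p_c ≤ C (a δ)^(-3) L P L^(3 / u)`.
(3) For every irrational `a₀ > 0` and `ε > 0` there are `η, C > 0` such that `|a - a₀| ≤ η` implies
`tilde p_E ≤ C P L^ε` and `p_c ≤ C L P L^ε`.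
(4) For coprime `r ≥ 2`, `s ≥ 1` there are `η, C > 0` such that `|a - r / s| ≤ η` implies
`tilde p_E ≤ C P L^(3 / r)` and `p_c ≤ C L P L^(3 / r)`.
(5) For every integer `d ≥ 2` and `ε > 0` there are `κ, C₁, C > 0` such that for `|a - 1 / d| ≤ κ`: if
`n P^d ≥ C₁ L` then `tilde p_E ≤ C P L^ε`, `p_c ≤ C L P L^ε`; and if `a ≥ 1 / d + t`, `t > 0`, then
`tilde p_E ≤ C t^(-3) P L^ε`, `p_c ≤ C t^(-3) L P L^ε`.
(6) For every integer `d ≥ 2` and `ε > 0` there are `κ, C > 0` such that for `|a - 1 / d| ≤ κ` and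
`n P^d ≥ 1`: `tilde p_E ≤ C P L^ε (1 + L / (n P^d))^(1 / d)`, `p_c ≤ C L P L^ε (1 + L / (n P^d))^(1 / d)`.
(7) As (2) with a weight `W ≥ 1`: if for all integers `1 ≤ j < u`, `m ≥ 1` either `m a ≥ j + δ`, or
`n^j P^m ≥ 1` and `W^m n^j P^m ≥ (8 u / a) L`, then `tilde p_E ≤ C (a δ)^(-3) W P L^(3 / u)`,
`p_c ≤ C (a δ)^(-3) L W P L^(3 / u)`. -/
theorem Vale.Agent.Results.P064.A00000_generic.result :
    (∀ μ₀ : ℕ, 2 ≤ μ₀ → ∃ C : ℝ, 0 < C ∧ ∀ n : ℕ, 3 ≤ n →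
      ∀ (V : Type) [Fintype V] (H : SimpleGraph V), Fintype.card V ≤ n → H ≠ ⊥ →
      ∀ a : ℝ, a = Real.log (1 / max (pE n H) (1 / (n : ℝ))) / Real.log n →
      ∀ δ : ℝ, 0 < δ → δ ≤ 1 →
      (∀ j m : ℕ, 1 ≤ j → j < μ₀ → 1 ≤ m → δ ≤ |(m : ℝ) * a - (j : ℝ)|) →
      pTilde n H ≤ C * (1 / δ ^ 6) * (max (pE n H) (1 / (n : ℝ)) * (Real.log n) ^ ((3 : ℝ) / μ₀)) ∧
      pc n H ≤ C * (1 / δ ^ 6) * Real.log n *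
        (max (pE n H) (1 / (n : ℝ)) * (Real.log n) ^ ((3 : ℝ) / μ₀))) ∧
    (∀ u : ℕ, 2 ≤ u → ∃ C : ℝ, 0 < C ∧ ∀ n : ℕ, 3 ≤ n →
      ∀ (V : Type) [Fintype V] (H : SimpleGraph V), Fintype.card V ≤ n → H ≠ ⊥ →
      ∀ a : ℝ, a = Real.log (1 / max (pE n H) (1 / (n : ℝ))) / Real.log n → 0 < a →
      ∀ δ : ℝ, 0 < δ → δ ≤ 1 →
      (∀ j m : ℕ, 1 ≤ j → j < u → 1 ≤ m →
        (j : ℝ) + δ ≤ (m : ℝ) * a ∨
          8 * (u : ℝ) / a * Real.log n ≤ (n : ℝ) ^ j * max (pE n H) (1 / (n : ℝ)) ^ m) →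
      pTilde n H ≤ C * (1 / (a * δ) ^ 3) *
        (max (pE n H) (1 / (n : ℝ)) * (Real.log n) ^ ((3 : ℝ) / u)) ∧
      pc n H ≤ C * (1 / (a * δ) ^ 3) * Real.log n *
        (max (pE n H) (1 / (n : ℝ)) * (Real.log n) ^ ((3 : ℝ) / u))) ∧
    (∀ a₀ : ℝ, Irrational a₀ → 0 < a₀ → ∀ ε : ℝ, 0 < ε →
      ∃ η C : ℝ, 0 < η ∧ 0 < C ∧ ∀ n : ℕ, 3 ≤ n →
      ∀ (V : Type) [Fintype V] (H : SimpleGraph V), Fintype.card V ≤ n → H ≠ ⊥ →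
      ∀ a : ℝ, a = Real.log (1 / max (pE n H) (1 / (n : ℝ))) / Real.log n → |a - a₀| ≤ η →
      pTilde n H ≤ C * (max (pE n H) (1 / (n : ℝ)) * (Real.log n) ^ ε) ∧
      pc n H ≤ C * Real.log n * (max (pE n H) (1 / (n : ℝ)) * (Real.log n) ^ ε)) ∧
    (∀ r s : ℕ, 2 ≤ r → 1 ≤ s → Nat.Coprime r s →
      ∃ η C : ℝ, 0 < η ∧ 0 < C ∧ ∀ n : ℕ, 3 ≤ n →
      ∀ (V : Type) [Fintype V] (H : SimpleGraph V), Fintype.card V ≤ n → H ≠ ⊥ →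
      ∀ a : ℝ, a = Real.log (1 / max (pE n H) (1 / (n : ℝ))) / Real.log n →
      |a - (r : ℝ) / s| ≤ η →
      pTilde n H ≤ C * (max (pE n H) (1 / (n : ℝ)) * (Real.log n) ^ ((3 : ℝ) / r)) ∧
      pc n H ≤ C * Real.log n * (max (pE n H) (1 / (n : ℝ)) * (Real.log n) ^ ((3 : ℝ) / r))) ∧
    (∀ d : ℕ, 2 ≤ d → ∀ ε : ℝ, 0 < ε →
      ∃ κ C₁ C : ℝ, 0 < κ ∧ 0 < C₁ ∧ 0 < C ∧ ∀ n : ℕ, 3 ≤ n →
      ∀ (V : Type) [Fintype V] (H : SimpleGraph V), Fintype.card V ≤ n → H ≠ ⊥ →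
      ∀ a : ℝ, a = Real.log (1 / max (pE n H) (1 / (n : ℝ))) / Real.log n →
      |a - 1 / (d : ℝ)| ≤ κ →
      (C₁ * Real.log n ≤ (n : ℝ) * max (pE n H) (1 / (n : ℝ)) ^ d →
        pTilde n H ≤ C * (max (pE n H) (1 / (n : ℝ)) * (Real.log n) ^ ε) ∧
        pc n H ≤ C * Real.log n * (max (pE n H) (1 / (n : ℝ)) * (Real.log n) ^ ε)) ∧
      (∀ t : ℝ, 0 < t → 1 / (d : ℝ) + t ≤ a →
        pTilde n H ≤ C * (1 / t ^ 3) * (max (pE n H) (1 / (n : ℝ)) * (Real.log n) ^ ε) ∧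
        pc n H ≤ C * (1 / t ^ 3) * Real.log n *
          (max (pE n H) (1 / (n : ℝ)) * (Real.log n) ^ ε))) ∧
    (∀ d : ℕ, 2 ≤ d → ∀ ε : ℝ, 0 < ε →
      ∃ κ C : ℝ, 0 < κ ∧ 0 < C ∧ ∀ n : ℕ, 3 ≤ n →
      ∀ (V : Type) [Fintype V] (H : SimpleGraph V), Fintype.card V ≤ n → H ≠ ⊥ →
      ∀ a : ℝ, a = Real.log (1 / max (pE n H) (1 / (n : ℝ))) / Real.log n →
      |a - 1 / (d : ℝ)| ≤ κ →
      1 ≤ (n : ℝ) * max (pE n H) (1 / (n : ℝ)) ^ d →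
      pTilde n H ≤ C * (max (pE n H) (1 / (n : ℝ)) * (Real.log n) ^ ε *
        (1 + Real.log n / ((n : ℝ) * max (pE n H) (1 / (n : ℝ)) ^ d)) ^ ((d : ℝ)⁻¹)) ∧
      pc n H ≤ C * Real.log n * (max (pE n H) (1 / (n : ℝ)) * (Real.log n) ^ ε *
        (1 + Real.log n / ((n : ℝ) * max (pE n H) (1 / (n : ℝ)) ^ d)) ^ ((d : ℝ)⁻¹))) ∧
    (∀ u : ℕ, 2 ≤ u → ∃ C : ℝ, 0 < C ∧ ∀ n : ℕ, 3 ≤ n →
      ∀ (V : Type) [Fintype V] (H : SimpleGraph V), Fintype.card V ≤ n → H ≠ ⊥ →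
      ∀ a : ℝ, a = Real.log (1 / max (pE n H) (1 / (n : ℝ))) / Real.log n → 0 < a →
      ∀ δ W : ℝ, 0 < δ → δ ≤ 1 → 1 ≤ W →
      (∀ j m : ℕ, 1 ≤ j → j < u → 1 ≤ m →
        (j : ℝ) + δ ≤ (m : ℝ) * a ∨
          (1 ≤ (n : ℝ) ^ j * max (pE n H) (1 / (n : ℝ)) ^ m ∧
            8 * (u : ℝ) / a * Real.log n ≤
              W ^ m * ((n : ℝ) ^ j * max (pE n H) (1 / (n : ℝ)) ^ m))) →
      pTilde n H ≤ C * (1 / (a * δ) ^ 3) *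
        (W * (max (pE n H) (1 / (n : ℝ)) * (Real.log n) ^ ((3 : ℝ) / u))) ∧
      pc n H ≤ C * (1 / (a * δ) ^ 3) * Real.log n *
        (W * (max (pE n H) (1 / (n : ℝ)) * (Real.log n) ^ ((3 : ℝ) / u)))) :=
  ⟨fun μ₀ hμ₀ => y_thresholds_delta μ₀ hμ₀,
   fun u hu => z_two_sided u hu,
   fun _ hirr ha₀ _ hε => y_irrational hirr ha₀ hε,
   fun _ _ hr hs hcop => y_rational hr hs hcop,
   fun d hd _ hε => z_near_unit d hd hε,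
   fun d hd _ hε => near_below d hd hε,
   fun u hu => w_two_sided u hu⟩
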