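import Vale.Agent.Lib.P064Y.Final

open Vale.Agent.Lib.P064 Vale.Agent.Lib.P064Y in
/-- With `M = max (p_E(n,H), 1 / n)`, `L = log n`, `D = n M`: there is a universal `C` such that for `n ≥ 3`
and `H` with an edge and at most `n` vertices, `D ≤ L` implies `tilde p_E ≤ C M qExp L D` and `p_c ≤ C L M qExp L D`,
where `qExp L D = exp (a b / (a + b))`, `a = log (1 + L / D)`, `b = log (1 + D)`.
Moreover `qExp L D ≤ (4 L)^(1/4)` for `1 ≤ D ≤ L`. -/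
theorem Vale.Agent.Results.P064.A00000_harmonic.result :
    (∃ C : ℝ, 0 < C ∧ ∀ (n : ℕ) (V : Type) [Fintype V] (H : SimpleGraph V), 3 ≤ n →
      Fintype.card V ≤ n → H ≠ ⊥ →
      (n : ℝ) * max (pE n H) (1 / (n : ℝ)) ≤ Real.log n →
      pTilde n H ≤ C * max (pE n H) (1 / (n : ℝ)) * qExp (Real.log n) ((n : ℝ) * max (pE n H) (1 / (n : ℝ))) ∧
      pc n H ≤ C * Real.log n * max (pE n H) (1 / (n : ℝ)) * qExp (Real.log n) ((n : ℝ) * max (pE n H) (1 / (n : ℝ)))) ∧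
    (∀ L D : ℝ, 1 ≤ D → D ≤ L → qExp L D ≤ (4 * L) ^ ((1 : ℝ) / 4)) :=
  ⟨y_thresholds, fun _ _ hD hDL => qExp_le hD hDL⟩
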