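import Vale.Agent.Lib.P064T.Uniform

open Vale.Agent.Lib.P064 in
/-- For every `ε > 0` there is `C` such that for all `n ≥ 3` and all `H` with an edge and at most `n` vertices:
`tilde p_E ≤ C max (p_E, 1 / n) (log n)^(1/2 + ε)` and `p_c ≤ C max (p_E, 1 / n) (log n)^(3/2 + ε)`. -/
theorem Vale.Agent.Results.P064.A0000_half.result (ε : ℝ) (hε : 0 < ε) :
    ∃ C : ℝ, 0 < C ∧ ∀ n : ℕ, 3 ≤ n → ∀ (V : Type) [Fintype V] (H : SimpleGraph V),
      Fintype.card V ≤ n → H ≠ ⊥ →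
      pTilde n H ≤ C * max (pE n H) (1 / (n : ℝ)) * (Real.log n) ^ (1 / 2 + ε) ∧
      pc n H ≤ C * max (pE n H) (1 / (n : ℝ)) * (Real.log n) ^ (3 / 2 + ε) :=
  Vale.Agent.Lib.P064T.thresholds_uniform ε hε
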