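import Vale.Agent.Lib.P064Q.FinalQ

open Vale.Agent.Lib.P064 Vale.Agent.Lib.P064Q in
/-- For all `n ≥ 2` and all graphs `H` with an edge and at most `n` vertices:
`tilde p_E ≤ C (1/n + n p_E²)` and `p_c ≤ C log n (1/n + n p_E²)`. -/
theorem Vale.Agent.Results.P064.A0000_nsq.result :
    ∃ C : ℝ, 0 < C ∧ ∀ (n : ℕ) (V : Type) [Fintype V] (H : SimpleGraph V), 2 ≤ n →
      Fintype.card V ≤ n → H ≠ ⊥ →
      pTilde n H ≤ C * (1 / (n : ℝ) + (n : ℝ) * pE n H ^ 2) ∧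
      pc n H ≤ C * Real.log n * (1 / (n : ℝ) + (n : ℝ) * pE n H ^ 2) :=
  q_thresholds_main
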