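import Vale.Agent.Lib.P064X.XWindow
import Vale.Agent.Lib.P064X.XUniform

open Vale.Agent.Lib.P064 in
/-- With `P = p_E(n,H)`, `L = log n`, `D = n P`. (1) If `1 ≤ D` and `1000 D^2 ≤ n`:
`tilde p_E ≤ C P (exp X + L/D)`, `p_c ≤ C P L (exp X + L/D)` with
`X = (16/5) (log D + 3) log L / (L - log D - 2)`. (2) If `L ≤ D` and `log D * log L ≤ L`: `tilde p_E ≤ C P`,
`p_c ≤ C P L`. (3) Always `tilde p_E ≤ C (P (1+L)^(4/5) + L/n)` and `p_c ≤ C L (P (1+L)^(4/5) + L/n)`. -/
theorem Vale.Agent.Results.P064.A000_tops.result :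
    ∃ C : ℝ, 0 < C ∧ ∀ (n : ℕ) (V : Type) [Fintype V] (H : SimpleGraph V), 2 ≤ n →
      Fintype.card V ≤ n → H ≠ ⊥ →
      ((1 ≤ (n : ℝ) * pE n H → 1000 * ((n : ℝ) * pE n H) ^ 2 ≤ n →
        pTilde n H ≤ C * pE n H *
          (Real.exp ((16 / 5) * (Real.log ((n : ℝ) * pE n H) + 3) * Real.log (Real.log n) /
            (Real.log n - Real.log ((n : ℝ) * pE n H) - 2)) +
            Real.log n / ((n : ℝ) * pE n H)) ∧
        pc n H ≤ C * pE n H * Real.log n *
          (Real.exp ((16 / 5) * (Real.log ((n : ℝ) * pE n H) + 3) * Real.log (Real.log n) /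
            (Real.log n - Real.log ((n : ℝ) * pE n H) - 2)) +
            Real.log n / ((n : ℝ) * pE n H))) ∧
      (Real.log n ≤ (n : ℝ) * pE n H →
        Real.log ((n : ℝ) * pE n H) * Real.log (Real.log n) ≤ Real.log n →
        pTilde n H ≤ C * pE n H ∧ pc n H ≤ C * pE n H * Real.log n) ∧
      (pTilde n H ≤ C * (pE n H * (1 + Real.log n) ^ ((4 : ℝ) / 5) + Real.log n / n) ∧
        pc n H ≤ C * Real.log n * (pE n H * (1 + Real.log n) ^ ((4 : ℝ) / 5) + Real.log n / n))) := by
  obtain ⟨C₁, hC₁, h1⟩ := x_thresholds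
  obtain ⟨C₂, hC₂, h2⟩ := x_window
  obtain ⟨C₃, hC₃, h3⟩ := x_uniform
  refine ⟨C₁ + C₂ + C₃, by positivity, ?_⟩
  intro n V _ H hn hV hH
  have hE0 : 0 < pE n H := pE_pos hn hV hH
  have hn2 : (2 : ℝ) ≤ n := by exact_mod_cast hn
  have hn0 : (0 : ℝ) < n := by linarith
  have hL : 0 < Real.log n := Real.log_pos (by linarith)
  have hf : 0 ≤ Real.log n / (n : ℝ) := by positivity
  have hf2 : 0 ≤ Real.log n / ((n : ℝ) * pE n H) := by positivity
  have hY : 0 ≤ (1 + Real.log n) ^ ((4 : ℝ) / 5) := by positivity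
  refine ⟨?_, ?_, ?_⟩
  · intro hD1 hD2
    obtain ⟨h4, h5⟩ := h1 n V H hn hV hH hD1 hD2
    unfold xExpo at h4 h5
    have hE := Real.exp_pos ((16 / 5) * (Real.log ((n : ℝ) * pE n H) + 3) * Real.log (Real.log n) /
            (Real.log n - Real.log ((n : ℝ) * pE n H) - 2))
    constructor
    · refine h4.trans ?_
      apply mul_le_mul_of_nonneg_right _ (by positivity)
      apply mul_le_mul_of_nonneg_right _ hE0.le
      linarith
    · refine h5.trans ?_
      apply mul_le_mul_of_nonneg_right _ (by positivity)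
      apply mul_le_mul_of_nonneg_right _ hL.le
      apply mul_le_mul_of_nonneg_right _ hE0.le
      linarith
  · intro hD1 hD2
    obtain ⟨h4, h5⟩ := h2 n V H hn hV hH hD1 hD2
    constructor
    · refine h4.trans ?_
      apply mul_le_mul_of_nonneg_right _ hE0.le
      linarith
    · refine h5.trans ?_
      apply mul_le_mul_of_nonneg_right _ hL.le
      apply mul_le_mul_of_nonneg_right _ hE0.le
      linarith
  · obtain ⟨h4, h5⟩ := h3 n hn V H hV hH
    have hb : 0 ≤ pE n H * (1 + Real.log n) ^ ((4 : ℝ) / 5) + Real.log n / n := by positivity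
    constructor
    · refine h4.trans ?_
      apply mul_le_mul_of_nonneg_right _ hb
      linarith
    · refine h5.trans ?_
      apply mul_le_mul_of_nonneg_right _ hb
      apply mul_le_mul_of_nonneg_right _ hL.le
      linarith
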