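import Vale.Agent.Lib.P064U.Global

open Vale.Agent.Lib.P064 Vale.Agent.Lib.P064U in
/-- With `x = log n`, `y = 1 + log log n`, `E = max 0 (log n / log (1 / p_E) - 1)`:
(i) if `8 p_E √n ≤ 1` then for all `B ≥ e`: `tilde p_E ≤ C W`, `p_c ≤ C x W`, where
`W = (p_E + 1 / n) y B x ^ (7 E / 3) + (x / log B) / n`;
(ii) if also `p_E ≥ x / n` then `tilde p_E ≤ C p_E y x ^ (7 E / 3)`, `p_c ≤ C p_E x y x ^ (7 E / 3)`;
(iii) if `p_E ≥ 1 / (3 n)` then `tilde p_E ≤ C p_E x / y`, `p_c ≤ C p_E x ^ 2 / y`. -/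
theorem Vale.Agent.Results.P064.A000_updown.result :
    ∃ C : ℝ, 0 < C ∧ ∀ n : ℕ, 3 ≤ n → ∀ (V : Type) [Fintype V] (H : SimpleGraph V),
      Fintype.card V ≤ n → H ≠ ⊥ →
      (8 * pE n H * Real.sqrt n ≤ 1 → ∀ B : ℝ, Real.exp 1 ≤ B →
        pTilde n H ≤ C * ((pE n H + 1 / n) * (1 + Real.log (Real.log n)) * B *
            (Real.log n) ^ ((7 / 3) * max 0 (Real.log n / Real.log (1 / pE n H) - 1)) +
            (Real.log n / Real.log B) / n) ∧
        pc n H ≤ C * Real.log n * ((pE n H + 1 / n) * (1 + Real.log (Real.log n)) * B *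
            (Real.log n) ^ ((7 / 3) * max 0 (Real.log n / Real.log (1 / pE n H) - 1)) +
            (Real.log n / Real.log B) / n)) ∧
      (8 * pE n H * Real.sqrt n ≤ 1 → Real.log n / n ≤ pE n H →
        pTilde n H ≤ C * (pE n H * (1 + Real.log (Real.log n)) *
            (Real.log n) ^ ((7 / 3) * max 0 (Real.log n / Real.log (1 / pE n H) - 1))) ∧
        pc n H ≤ C * Real.log n * (pE n H * (1 + Real.log (Real.log n)) *
            (Real.log n) ^ ((7 / 3) * max 0 (Real.log n / Real.log (1 / pE n H) - 1)))) ∧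
      (1 / (3 * (n : ℝ)) ≤ pE n H →
        pTilde n H ≤ C * (pE n H * Real.log n / (1 + Real.log (Real.log n))) ∧
        pc n H ≤ C * (pE n H * (Real.log n) ^ 2 / (1 + Real.log (Real.log n)))) := by
  obtain ⟨C₁, hC₁, h1⟩ := up_thresholds
  obtain ⟨C₂, hC₂, h2⟩ := up_global
  refine ⟨C₁ + 9 * C₁ + C₂, by positivity, ?_⟩
  intro n hn V _ H hV hH
  have hn3 : (3 : ℝ) ≤ n := by exact_mod_cast hn
  have hn0 : (0 : ℝ) < n := by linarith
  have hx1 : 1 ≤ Real.log n := by
    have h4 : Real.log (Real.exp 1) ≤ Real.log n :=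
      Real.log_le_log (Real.exp_pos 1) (by have := Real.exp_one_lt_d9; linarith)
    rwa [Real.log_exp] at h4
  have hx0 : 0 < Real.log n := by linarith
  have hE0 := pE_pos (n := n) (by omega) hV hH
  have hy0 : 0 ≤ Real.log (Real.log n) := Real.log_nonneg hx1
  refine ⟨?_, ?_, ?_⟩
  · intro hs B hB
    obtain ⟨h3, h4⟩ := h1 n hn V H hV hH hs B hB
    have hB0 : 0 < B := lt_of_lt_of_le (Real.exp_pos 1) hB
    have hlB : 1 ≤ Real.log B := by
      have := Real.log_le_log (Real.exp_pos 1) hB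
      rwa [Real.log_exp] at this
    set W := (pE n H + 1 / n) * (1 + Real.log (Real.log n)) * B *
      (Real.log n) ^ ((7 / 3) * max 0 (Real.log n / Real.log (1 / pE n H) - 1)) +
        (Real.log n / Real.log B) / n with hW
    have hW0 : 0 ≤ W := by positivity
    have hC : C₁ ≤ C₁ + 9 * C₁ + C₂ := by linarith
    exact ⟨h3.trans (mul_le_mul_of_nonneg_right hC hW0),
      h4.trans (mul_le_mul_of_nonneg_right (mul_le_mul_of_nonneg_right hC hx0.le) hW0)⟩
  · intro hs hp
    obtain ⟨h3, h4⟩ := h1 n hn V H hV hH hs (Real.exp 1) le_rfl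
    rw [Real.log_exp, div_one] at h3 h4
    set X := (Real.log n) ^ ((7 / 3) * max 0 (Real.log n / Real.log (1 / pE n H) - 1)) with hX
    have hX1 : 1 ≤ X := Real.one_le_rpow hx1 (by
      have : (0 : ℝ) ≤ max 0 (Real.log n / Real.log (1 / pE n H) - 1) := le_max_left _ _
      positivity)
    have hn1 : 1 / (n : ℝ) ≤ pE n H := by
      refine le_trans ?_ hp
      exact div_le_div_of_nonneg_right hx1 hn0.le
    have hE3 : Real.exp 1 ≤ 3 := by
      have := Real.exp_one_lt_d9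
      linarith
    obtain ⟨Y, hY⟩ : ∃ Y, Y = 1 + Real.log (Real.log n) := ⟨_, rfl⟩
    rw [← hY] at h3 h4 ⊢
    have hY1 : 1 ≤ Y := by rw [hY]; linarith
    have hYX : 1 ≤ Y * X := by nlinarith
    obtain ⟨Z, hZ⟩ : ∃ Z, Z = pE n H * Y * X := ⟨_, rfl⟩
    rw [← hZ]
    have hZ0 : 0 < Z := by
      rw [hZ]
      positivity
    have hbr : (pE n H + 1 / n) * Y * Real.exp 1 * X + Real.log n / n ≤ 7 * Z := by
      have h5 : (pE n H + 1 / n) * Y * Real.exp 1 * X ≤ (2 * pE n H) * Y * 3 * X := by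
        gcongr
        linarith
      have h6 : pE n H * 1 ≤ pE n H * (Y * X) := mul_le_mul_of_nonneg_left hYX hE0.le
      have h7 : (2 * pE n H) * Y * 3 * X = 6 * Z := by
        rw [hZ]
        ring
      have h8 : pE n H * (Y * X) = Z := by
        rw [hZ]
        ring
      linarith
    constructor
    · have h5 := mul_le_mul_of_nonneg_left hbr hC₁.le
      have h6 : 0 ≤ (3 * C₁ + C₂) * Z := by positivity
      have h7 : (C₁ + 9 * C₁ + C₂) * Z = (3 * C₁ + C₂) * Z + C₁ * (7 * Z) := by ring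
      rw [h7]
      linarith
    · have h5 := mul_le_mul_of_nonneg_left hbr (show 0 ≤ C₁ * Real.log n by positivity)
      have h6 : 0 ≤ (3 * C₁ + C₂) * Real.log n * Z := by positivity
      have h7 : (C₁ + 9 * C₁ + C₂) * Real.log n * Z =
          (3 * C₁ + C₂) * Real.log n * Z + C₁ * Real.log n * (7 * Z) := by ring
      rw [h7]
      linarith
  · intro hp
    obtain ⟨h3, h4⟩ := h2 n hn V H hV hH hp
    obtain ⟨Z, hZ⟩ : ∃ Z, Z = pE n H * Real.log n / (1 + Real.log (Real.log n)) := ⟨_, rfl⟩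
    rw [← hZ] at h3 h4 ⊢
    have hZ0 : 0 < Z := by
      rw [hZ]
      positivity
    have hZ2 : pE n H * (Real.log n) ^ 2 / (1 + Real.log (Real.log n)) = Z * Real.log n := by
      rw [hZ]
      ring
    rw [hZ2]
    have hC : C₂ ≤ C₁ + 9 * C₁ + C₂ := by linarith
    constructor
    · exact h3.trans (mul_le_mul_of_nonneg_right hC hZ0.le)
    · calc pc n H ≤ C₂ * Z * Real.log n := h4
        _ = C₂ * (Z * Real.log n) := by ring
        _ ≤ _ := mul_le_mul_of_nonneg_right hC (by positivity)
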