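import Vale.Agent.Lib.P064N.Thresh

open Vale.Agent.Lib.P064 Vale.Agent.Lib.P064N in
/-- With `Λ = log (e + n p_E)`: `tilde p_E ≤ C (p_E Λ (log n)^(11 Λ / log n) + log n / n)` and
`p_c ≤ C log n` times the same, whenever `8 p_E √n ≤ 1`; and without the power of `log n` whenever
`Λ log log n ≤ log n`. -/
theorem Vale.Agent.Results.P064.A00_near.result :
    ∃ C : ℝ, 0 < C ∧ ∀ n : ℕ, 3 ≤ n → ∀ (V : Type) [Fintype V] (H : SimpleGraph V),
      Fintype.card V ≤ n → H ≠ ⊥ →
      (8 * pE n H * Real.sqrt n ≤ 1 →
        pTilde n H ≤ C * (pE n H * Real.log (Real.exp 1 + n * pE n H) *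
            (Real.log n) ^ (11 * Real.log (Real.exp 1 + n * pE n H) / Real.log n) +
            Real.log n / n) ∧
        pc n H ≤ C * Real.log n * (pE n H * Real.log (Real.exp 1 + n * pE n H) *
            (Real.log n) ^ (11 * Real.log (Real.exp 1 + n * pE n H) / Real.log n) +
            Real.log n / n)) ∧
      (Real.log (Real.exp 1 + n * pE n H) * Real.log (Real.log n) ≤ Real.log n →
        pTilde n H ≤ C * (pE n H * Real.log (Real.exp 1 + n * pE n H) + Real.log n / n) ∧
        pc n H ≤ C * Real.log n *
          (pE n H * Real.log (Real.exp 1 + n * pE n H) + Real.log n / n)) := by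
  obtain ⟨C₁, hC₁, h1⟩ := near_thresholds
  obtain ⟨C₂, hC₂, h2⟩ := near_window
  refine ⟨C₁ + C₂, by positivity, ?_⟩
  intro n hn V _ H hV hH
  have hn3 : (3 : ℝ) ≤ n := by exact_mod_cast hn
  have hx : 0 < Real.log n := Real.log_pos (by linarith)
  have hE0 := pE_pos (n := n) (by omega) hV hH
  have hnp : 0 < (n : ℝ) * pE n H := by positivity
  have hΛ : 0 ≤ Real.log (Real.exp 1 + n * pE n H) := by
    apply Real.log_nonneg
    have : (1 : ℝ) ≤ Real.exp 1 := Real.one_le_exp (by norm_num)
    linarith
  constructor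
  · intro hs
    obtain ⟨h3, h4⟩ := h1 n (by omega) V H hV hH hs
    set S := pE n H * Real.log (Real.exp 1 + n * pE n H) *
            (Real.log n) ^ (11 * Real.log (Real.exp 1 + n * pE n H) / Real.log n) +
            Real.log n / n with hS
    have hS0 : 0 ≤ S := by positivity
    constructor
    · nlinarith
    · have : 0 ≤ Real.log n * S := by positivity
      nlinarith
  · intro hw
    obtain ⟨h3, h4⟩ := h2 n hn V H hV hH hw
    set S := pE n H * Real.log (Real.exp 1 + n * pE n H) + Real.log n / n with hS
    have hS0 : 0 ≤ S := by positivity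
    constructor
    · nlinarith
    · have : 0 ≤ Real.log n * S := by positivity
      nlinarith
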