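import Vale.Agent.Lib.P064S.Final

open Vale.Agent.Lib.P064 in
/-- On the sparse side: for `1 ≤ n p_E` and `1000 (n p_E)² ≤ n`, with `L = log n`,
`tilde p_E ≤ C p_E (1 + L/(n p_E)) exp (C (1 + log (n p_E))² / L)`,
`p_c ≤ C p_E L (1 + L/(n p_E)) exp (C (1 + log (n p_E))² / L)`; and so the bound of Q1,
`p_c ≤ C p_E log n`, and `tilde p_E ≤ C p_E`, whenever `log n ≤ n p_E` and `log (n p_E)² ≤ log n`. -/
theorem Vale.Agent.Results.P064.A1_sparse.result :
    ∃ C : ℝ, 0 < C ∧ ∀ n : ℕ, 2 ≤ n → ∀ (V : Type) [Fintype V] (H : SimpleGraph V),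
      Fintype.card V ≤ n → H ≠ ⊥ → 1 ≤ (n : ℝ) * pE n H → 1000 * ((n : ℝ) * pE n H) ^ 2 ≤ n →
      pTilde n H ≤ C * pE n H * (1 + Real.log n / ((n : ℝ) * pE n H)) *
          Real.exp (C * (1 + Real.log ((n : ℝ) * pE n H)) ^ 2 / Real.log n) ∧
      pc n H ≤ C * pE n H * Real.log n * (1 + Real.log n / ((n : ℝ) * pE n H)) *
          Real.exp (C * (1 + Real.log ((n : ℝ) * pE n H)) ^ 2 / Real.log n) ∧
      (Real.log n ≤ (n : ℝ) * pE n H → Real.log ((n : ℝ) * pE n H) ^ 2 ≤ Real.log n →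
        pc n H ≤ C * pE n H * Real.log n ∧ pTilde n H ≤ C * pE n H) := by
  obtain ⟨C₀, hC₀, hmain⟩ := sparse_thresholds
  refine ⟨C₀ + 2 * C₀ * Real.exp (6 * C₀), by positivity, ?_⟩
  intro n hn V _ H hV hH hD1 hD2
  obtain ⟨h1, h2⟩ := hmain n V H hn hV hH hD1 hD2
  have hn2 : (2 : ℝ) ≤ n := by exact_mod_cast hn
  have hL : 0 < Real.log n := Real.log_pos (by linarith)
  have hL2 : 1 / 2 ≤ Real.log n := by
    have h3 : Real.log 2 ≤ Real.log n := Real.log_le_log (by norm_num) hn2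
    have h4 := Real.log_two_gt_d9
    linarith
  have hE0 := pE_pos hn hV hH
  obtain ⟨D, hDdef⟩ : ∃ D, D = (n : ℝ) * pE n H := ⟨_, rfl⟩
  rw [← hDdef] at hD1 hD2 h1 h2 ⊢
  obtain ⟨L, hLdef⟩ : ∃ L, L = Real.log n := ⟨_, rfl⟩
  rw [← hLdef] at hL hL2 h1 h2 ⊢
  have hD0 : 0 < D := by linarith
  have hF : 1 ≤ 1 + L / D := by
    have : 0 ≤ L / D := by positivity
    linarith
  have hX1 : Real.exp (C₀ * (1 + Real.log D) ^ 2 / L) ≤
      Real.exp ((C₀ + 2 * C₀ * Real.exp (6 * C₀)) * (1 + Real.log D) ^ 2 / L) := by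
    apply Real.exp_le_exp.2
    apply div_le_div_of_nonneg_right _ hL.le
    apply mul_le_mul_of_nonneg_right _ (by positivity)
    have : 0 ≤ 2 * C₀ * Real.exp (6 * C₀) := by positivity
    linarith
  have hC : C₀ ≤ C₀ + 2 * C₀ * Real.exp (6 * C₀) := by
    have : 0 ≤ 2 * C₀ * Real.exp (6 * C₀) := by positivity
    linarith
  have hexp0 : 0 < Real.exp (C₀ * (1 + Real.log D) ^ 2 / L) := Real.exp_pos _
  refine ⟨?_, ?_, ?_⟩
  · refine h1.trans ?_
    apply mul_le_mul _ hX1 hexp0.le (by positivity)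
    apply mul_le_mul_of_nonneg_right _ (by positivity)
    exact mul_le_mul_of_nonneg_right hC hE0.le
  · refine h2.trans ?_
    apply mul_le_mul _ hX1 hexp0.le (by positivity)
    apply mul_le_mul_of_nonneg_right _ (by positivity)
    apply mul_le_mul_of_nonneg_right _ hL.le
    exact mul_le_mul_of_nonneg_right hC hE0.le
  · intro hLD hgL
    have hF2 : 1 + L / D ≤ 2 := by
      have : L / D ≤ 1 := by
        rw [div_le_one hD0]
        exact hLD
      linarith
    have hexpo : C₀ * (1 + Real.log D) ^ 2 / L ≤ 6 * C₀ := by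
      rw [div_le_iff₀ hL]
      have h3 : (1 + Real.log D) ^ 2 ≤ 2 + 2 * Real.log D ^ 2 := by
        nlinarith [sq_nonneg (1 - Real.log D)]
      have h4 : (1 + Real.log D) ^ 2 ≤ 6 * L := by linarith
      nlinarith
    have hX2 : Real.exp (C₀ * (1 + Real.log D) ^ 2 / L) ≤ Real.exp (6 * C₀) :=
      Real.exp_le_exp.2 hexpo
    have hE6 : 0 < Real.exp (6 * C₀) := Real.exp_pos _
    have hprod : (1 + L / D) * Real.exp (C₀ * (1 + Real.log D) ^ 2 / L) ≤ 2 * Real.exp (6 * C₀) :=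
      mul_le_mul hF2 hX2 hexp0.le (by norm_num)
    constructor
    · refine h2.trans ?_
      have hP : 0 ≤ C₀ * pE n H * L := by positivity
      calc C₀ * pE n H * L * (1 + L / D) * Real.exp (C₀ * (1 + Real.log D) ^ 2 / L)
          = C₀ * pE n H * L * ((1 + L / D) * Real.exp (C₀ * (1 + Real.log D) ^ 2 / L)) := by ring
        _ ≤ C₀ * pE n H * L * (2 * Real.exp (6 * C₀)) := mul_le_mul_of_nonneg_left hprod hP
        _ ≤ _ := by
            have : 0 ≤ C₀ * (pE n H * L) := by positivity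
            nlinarith
    · refine h1.trans ?_
      have hP : 0 ≤ C₀ * pE n H := by positivity
      calc C₀ * pE n H * (1 + L / D) * Real.exp (C₀ * (1 + Real.log D) ^ 2 / L)
          = C₀ * pE n H * ((1 + L / D) * Real.exp (C₀ * (1 + Real.log D) ^ 2 / L)) := by ring
        _ ≤ C₀ * pE n H * (2 * Real.exp (6 * C₀)) := mul_le_mul_of_nonneg_left hprod hP
        _ ≤ _ := by
            have : 0 ≤ C₀ * pE n H := by positivity
            nlinarith
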