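import Vale.Agent.Lib.P064.Final

open Vale.Agent.Lib.P064 in
/-- `p_c(n,H) ≤ C p_E(n,H) log² n` for all `n ≥ 2` and all `H` with an edge and at most `n` vertices. -/
theorem Vale.Agent.Results.P064.A_main.result :
    ∃ C : ℝ, 0 < C ∧ ∀ n : ℕ, 2 ≤ n → ∀ (V : Type) [Fintype V] (H : SimpleGraph V),
      Fintype.card V ≤ n → H ≠ ⊥ → pc n H ≤ C * pE n H * Real.log n ^ 2 :=
  pc_le_pE_log_sq
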