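import Vale.Agent.Lib.P064N.Global4

open Vale.Agent.Lib.P064 Vale.Agent.Lib.P064N in
/-- For all `n ≥ 3` and all `H` with `p_E ≥ 1 / (3 n)`:
`tilde p_E ≤ C p_E log n / (log log n)^(1/4)` and `p_c ≤ C p_E (log n)^2 / (log log n)^(1/4)`. -/
theorem Vale.Agent.Results.P064.B0_global.result :
    ∃ C : ℝ, 0 < C ∧ ∀ n : ℕ, 3 ≤ n → ∀ (V : Type) [Fintype V] (H : SimpleGraph V),
      Fintype.card V ≤ n → H ≠ ⊥ → 1 / (3 * (n : ℝ)) ≤ pE n H →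
      pTilde n H ≤ C * pE n H * Real.log n / (Real.log (Real.log n)) ^ (1 / 4 : ℝ) ∧
      pc n H ≤ C * pE n H * (Real.log n) ^ 2 / (Real.log (Real.log n)) ^ (1 / 4 : ℝ) :=
  G4.global_thresholds
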