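import Vale.Agent.Lib.P064.PeelFinal

open Vale.Agent.Lib.P064 in
/-- For all `n ≥ 2` and `H`: `p_c ≤ C p_E log n (1 + log n)^min(1, 2 log(1/p_E)/log n)`, and in the
range `p_E ≥ exp(-log n / log log n)` the bound of Q1 holds: `p_c ≤ C p_E log n`. -/
theorem Vale.Agent.Results.P064.C_dense.result :
    ∃ C : ℝ, 0 < C ∧ ∀ n : ℕ, 2 ≤ n → ∀ (V : Type) [Fintype V] (H : SimpleGraph V),
      Fintype.card V ≤ n → H ≠ ⊥ →
      pc n H ≤ C * pE n H * Real.log n *
        (1 + Real.log n) ^ (min 1 (2 * Real.log (1 / pE n H) / Real.log n)) ∧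
      (3 ≤ n → Real.exp (-(Real.log n / Real.log (Real.log n))) ≤ pE n H →
        pc n H ≤ C * pE n H * Real.log n) := by
  obtain ⟨C₁, hC₁, h1⟩ := pc_le_pE_dense
  obtain ⟨C₂, hC₂, h2⟩ := pc_le_pE_log_range
  refine ⟨C₁ + C₂, by positivity, ?_⟩
  intro n hn V _ H hV hH
  have hE0 := pE_pos hn hV hH
  have hn2 : (2 : ℝ) ≤ n := by exact_mod_cast hn
  have hx : 0 < Real.log n := Real.log_pos (by linarith)
  constructor
  · refine (h1 n hn V H hV hH).trans ?_
    have hF : 0 ≤ pE n H * Real.log n *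
        (1 + Real.log n) ^ (min 1 (2 * Real.log (1 / pE n H) / Real.log n)) := by positivity
    nlinarith
  · intro hn3 hr
    refine (h2 n hn3 V H hV hH hr).trans ?_
    have hF : 0 ≤ pE n H * Real.log n := by positivity
    nlinarith
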