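import Vale.Agent.Lib.P064V.Final2

open Vale.Agent.Lib.P064 in
/-- With `L = log n` and `D = n p_E`, `1 ≤ D`, `1000 D² ≤ n`:
`tilde p_E ≤ C p_E (1 + L / D) exp (C (1 + log D) (1 + log (L + 2)) / L)`,
`p_c ≤ C p_E L (1 + L / D) exp (C (1 + log D) (1 + log (L + 2)) / L)`, and so
`tilde p_E ≤ C p_E`, `p_c ≤ C p_E log n` when `L ≤ D` and `(1 + log D) (1 + log (L + 2)) ≤ L`. -/
theorem Vale.Agent.Results.P064.E0_hubs.result :
    ∃ C : ℝ, 0 < C ∧ ∀ (n : ℕ) (V : Type) [Fintype V] (H : SimpleGraph V), 2 ≤ n →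
      Fintype.card V ≤ n → H ≠ ⊥ → 1 ≤ (n : ℝ) * pE n H →
      1000 * ((n : ℝ) * pE n H) ^ 2 ≤ n →
      (pTilde n H ≤ C * pE n H * (1 + Real.log n / ((n : ℝ) * pE n H)) *
          Real.exp (C * ((1 + Real.log ((n : ℝ) * pE n H)) *
            (1 + Real.log (Real.log n + 2))) / Real.log n) ∧
      pc n H ≤ C * pE n H * Real.log n * (1 + Real.log n / ((n : ℝ) * pE n H)) *
          Real.exp (C * ((1 + Real.log ((n : ℝ) * pE n H)) *
            (1 + Real.log (Real.log n + 2))) / Real.log n)) ∧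
      (Real.log n ≤ (n : ℝ) * pE n H →
        (1 + Real.log ((n : ℝ) * pE n H)) * (1 + Real.log (Real.log n + 2)) ≤ Real.log n →
        pTilde n H ≤ C * pE n H ∧ pc n H ≤ C * pE n H * Real.log n) :=
  Vale.Agent.Lib.P064V.hub_thresholds
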